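import Vale.Agent.Lib.P171.Link

/-!
A stable, tempered, radial pair potential on three-dimensional space whose pressure at inverse
temperature one is not differentiable in the activity.
-/

open MeasureTheory Filter Topology

namespace Vale.Agent.Results.P171.PhaseTransition

/-- The Euclidean distance between two points of three-dimensional space. -/
noncomputable def euclid (x y : Fin 3 → ℝ) : ℝ := Real.sqrt (∑ j, (x j - y j) ^ 2)

/-- The energy `U_N` of `N` points with radial pair potential `φ`. -/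
noncomputable def energy (φ : ℝ → ℝ) {N : ℕ} (x : Fin N → Fin 3 → ℝ) : ℝ :=
  ∑ i, ∑ j ∈ Finset.Ioi i, φ (euclid (x i) (x j))

/-- The cube `[0, L]³`. -/
def cube (L : ℝ) : Set (Fin 3 → ℝ) := {x | ∀ j, 0 ≤ x j ∧ x j ≤ L}

/-- The canonical partition function `Z_{L,N}(β)`. -/
noncomputable def canonicalZ (φ : ℝ → ℝ) (β L : ℝ) (N : ℕ) : ℝ :=
  (N.factorial : ℝ)⁻¹ * ∫ x in Set.pi Set.univ (fun _ : Fin N => cube L), Real.exp (-β * energy φ x)

/-- Boundedness on compact subsets of `(0, ∞)`. -/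
def LocallyBoundedOnPos (φ : ℝ → ℝ) : Prop :=
  ∀ r₁ r₂ : ℝ, 0 < r₁ → ∃ M : ℝ, ∀ r ∈ Set.Icc r₁ r₂, |φ r| ≤ M

/-- Stability: `U_N ≥ -B N` for all configurations of distinct points. -/
def Stable (φ : ℝ → ℝ) : Prop :=
  ∃ B : ℝ, ∀ (N : ℕ) (x : Fin N → Fin 3 → ℝ), Function.Injective x → -B * N ≤ energy φ x

/-- Temperedness: `φ(r) ≤ C r^(-3-ε)` for all `r ≥ R₀`. -/
def Tempered (φ : ℝ → ℝ) : Prop :=
  ∃ C ε R₀ : ℝ, 0 < C ∧ 0 < ε ∧ 0 < R₀ ∧ ∀ r, R₀ ≤ r → φ r ≤ C * r ^ (-3 - ε)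

open Vale.Agent.Lib.P171 in
lemma energy_eq (c : L1) {N : ℕ} (x : Fin N → Fin 3 → ℝ) :
    energy (φc c) x = En c (List.ofFn x) := (En_ofFn c x).symm

open Vale.Agent.Lib.P171 in
lemma cube_eq (L : ℝ) : cube L = box L := rfl

open Vale.Agent.Lib.P171 in
lemma integrand_eq (c : L1) {N : ℕ} (a : ℝ) (x : Fin N → Fin 3 → ℝ) :
    Real.exp (a * N - En c (List.ofFn x)) = Real.exp (a) ^ N * Real.exp (-(1:ℝ) * energy (φc c) x) := by
  rw [energy_eq, ← Real.exp_nat_mul, ← Real.exp_add]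
  congr 1
  ring

open Vale.Agent.Lib.P171 in
lemma integrable_one (c : L1) (hc : c ∈ Dom 4) {L : ℝ} (hL : 0 ≤ L) (N : ℕ) :
    IntegrableOn (fun x : Fin N → Fin 3 → ℝ => Real.exp (-(1:ℝ) * energy (φc c) x))
      (Set.pi Set.univ (fun _ : Fin N => cube L)) := by
  have h := (term_integral hc 0 hL N).1
  refine h.congr_fun (fun x _ => ?_) (MeasurableSet.univ_pi (fun _ => measurableSet_box L))
  show Real.exp (0 * (N : ℝ) - En c (List.ofFn x)) = _
  rw [integrand_eq]
  simp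

open Vale.Agent.Lib.P171 in
lemma term_eq (c : L1) (hc : c ∈ Dom 4) {L : ℝ} (hL : 0 ≤ L) (a : ℝ) (N : ℕ) :
    Real.exp a ^ N * canonicalZ (φc c) 1 L N =
      (N.factorial : ℝ)⁻¹ * (It (μL L) N (Wt c a)).toReal := by
  rw [← (term_integral hc a hL N).2]
  unfold canonicalZ
  simp_rw [integrand_eq]
  rw [integral_const_mul]
  rw [cube_eq]
  ring

open Vale.Agent.Lib.P171 in
lemma hasSum_eq (c : L1) (hc : c ∈ Dom 4) {L : ℝ} (hL : 0 ≤ L) (a : ℝ) :
    HasSum (fun N : ℕ => Real.exp a ^ N * canonicalZ (φc c) 1 L N) (XI c a L).toReal := by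
  have h := XI_hasSum hc a hL
  have e : (fun N : ℕ => Real.exp a ^ N * canonicalZ (φc c) 1 L N) =
      fun N : ℕ => (N.factorial : ℝ)⁻¹ * (It (μL L) N (Wt c a)).toReal := by
    funext N
    exact term_eq c hc hL a N
  rwa [e]

/-- There is a stable, tempered, radial pair potential with a phase transition: the pressure
at inverse temperature one exists and is not differentiable at some activity. -/
theorem result : ∃ φ : ℝ → ℝ, Measurable φ ∧ LocallyBoundedOnPos φ ∧ Stable φ ∧ Tempered φ ∧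
    ∃ Pr : ℝ → ℝ,
      (∀ (L : ℝ) (N : ℕ), 0 ≤ L → IntegrableOn (fun x : Fin N → Fin 3 → ℝ => Real.exp (-(1:ℝ) * energy φ x))
        (Set.pi Set.univ (fun _ : Fin N => cube L))) ∧
      (∀ z L : ℝ, 0 < z → 0 ≤ L → Summable (fun N : ℕ => z ^ N * canonicalZ φ 1 L N)) ∧
      (∀ z : ℝ, 0 < z → Tendsto (fun L : ℝ => (L ^ 3)⁻¹ * Real.log (∑' N : ℕ, z ^ N * canonicalZ φ 1 L N))
        atTop (𝓝 (Pr z))) ∧
      ∃ z : ℝ, 0 < z ∧ ¬ DifferentiableAt ℝ Pr z := by
  open Vale.Agent.Lib.P171 in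
  obtain ⟨c, hc3, a, ha⟩ := exists_kink
  have hc : c ∈ Dom 4 := Dom_mono (by norm_num) hc3
  refine ⟨φc c, measurable_φc c, ?_, ?_, ?_, fun z => ff c (Real.log z), ?_, ?_, ?_, ?_⟩
  · intro r₁ r₂ _
    exact ⟨Arep + ‖c‖, fun r _ => abs_φc_le c r⟩
  · refine ⟨Arep / 2, fun N x _ => ?_⟩
    rw [energy_eq]
    have := En_stable hc (List.ofFn x)
    simpa using this
  · refine ⟨1, 1, r0, by norm_num, by norm_num, r0_pos, fun r hr => ?_⟩
    have h1 := φc_nonpos_far hc.1 hr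
    have hr0 : 0 < r := lt_of_lt_of_le r0_pos hr
    have h2 : 0 < (1:ℝ) * r ^ (-3 - (1:ℝ)) := by positivity
    linarith
  · intro L N hL
    exact integrable_one c hc hL N
  · intro z L hz hL
    have h := hasSum_eq c hc hL (Real.log z)
    rw [Real.exp_log hz] at h
    exact h.summable
  · intro z hz
    have h1 := tendsto_gg hc (Real.log z)
    refine h1.congr' ?_
    filter_upwards [eventually_ge_atTop 0] with L hL
    have h := hasSum_eq c hc hL (Real.log z)
    rw [Real.exp_log hz] at h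
    rw [h.tsum_eq, div_eq_inv_mul]
    rfl
  · refine ⟨Real.exp a, Real.exp_pos a, fun hd => ha ?_⟩
    have h2 : DifferentiableAt ℝ ((fun z => ff c (Real.log z)) ∘ Real.exp) a :=
      DifferentiableAt.comp (g := fun z => ff c (Real.log z)) (f := Real.exp) a hd
        Real.differentiableAt_exp
    have e : ((fun z => ff c (Real.log z)) ∘ Real.exp) = ff c := by
      funext t
      simp only [Function.comp_apply, Real.log_exp]
    rwa [e] at h2

end Vale.Agent.Results.P171.PhaseTransition
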